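import Mathlib

/-!
# P150: Glauber dynamics of the Sherrington-Kirkpatrick model, basic definitions and identities
-/

namespace Vale.Agent.Lib.P150

open Finset

variable {n : ℕ}

/-- The spin value `±1` of a Boolean. -/
def sp (b : Bool) : ℝ := if b then 1 else -1

/-- Spin configurations on `n` sites. -/
abbrev Config (n : ℕ) : Type := Fin n → Bool

/-- The symmetric extension `g_ji = g_ij` of the disorder, with zero diagonal. -/
def symG (g : Fin n → Fin n → ℝ) (i j : Fin n) : ℝ :=
  if i < j then g i j else if j < i then g j i else 0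

/-- The exponent `(β/√n) ∑_{i<j} g_ij x_i x_j` of the Gibbs weight. -/
noncomputable def ham (β : ℝ) (g : Fin n → Fin n → ℝ) (x : Config n) : ℝ :=
  β / Real.sqrt n * ∑ i, ∑ j ∈ univ.filter (fun j => i < j), g i j * sp (x i) * sp (x j)

/-- The partition function. -/
noncomputable def partition (β : ℝ) (g : Fin n → Fin n → ℝ) : ℝ := ∑ x, Real.exp (ham β g x)

/-- The Gibbs measure. -/
noncomputable def gibbs (β : ℝ) (g : Fin n → Fin n → ℝ) (x : Config n) : ℝ :=
  Real.exp (ham β g x) / partition β g

/-- The local field `h_i = β n^{-1/2} ∑_{j≠i} g_ij x_j`. -/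
noncomputable def field (β : ℝ) (g : Fin n → Fin n → ℝ) (x : Config n) (i : Fin n) : ℝ :=
  β / Real.sqrt n * ∑ j ∈ univ.filter (fun j => j ≠ i), symG g i j * sp (x j)

/-- The heat-bath update at site `i`: the spin `i` is resampled, taking the value `s` with
probability `e^{s h_i} / (2 cosh h_i)`. -/
noncomputable def Q (β : ℝ) (g : Fin n → Fin n → ℝ) (i : Fin n) (f : Config n → ℝ)
    (x : Config n) : ℝ :=
  ∑ b : Bool, Real.exp (sp b * field β g x i) / (2 * Real.cosh (field β g x i)) *
    f (Function.update x i b)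

/-- The generator `L = ∑_i (Q_i - I)`. -/
noncomputable def gen (β : ℝ) (g : Fin n → Fin n → ℝ) (f : Config n → ℝ) (x : Config n) : ℝ :=
  ∑ i, (Q β g i f x - f x)

/-- Expectation under the Gibbs measure. -/
noncomputable def Ex (β : ℝ) (g : Fin n → Fin n → ℝ) (f : Config n → ℝ) : ℝ :=
  ∑ x, gibbs β g x * f x

/-- Variance under the Gibbs measure. -/
noncomputable def Vr (β : ℝ) (g : Fin n → Fin n → ℝ) (f : Config n → ℝ) : ℝ :=
  Ex β g (fun x => (f x - Ex β g f) ^ 2)

/-- The Dirichlet form `⟨f, -L f⟩` in `L²(μ)`. -/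
noncomputable def dirichlet (β : ℝ) (g : Fin n → Fin n → ℝ) (f : Config n → ℝ) : ℝ :=
  Ex β g (fun x => f x * (-gen β g f x))

/-- The spectral gap of `-L` on `L²(μ)`, in its variational form: the infimum of the Rayleigh
quotients `⟨f, -L f⟩ / Var f` over the non-constant functions. -/
noncomputable def gap (β : ℝ) (g : Fin n → Fin n → ℝ) : ℝ :=
  sInf {r | ∃ f : Config n → ℝ, 0 < Vr β g f ∧ r = dirichlet β g f / Vr β g f}

/-- The second moment `⟨R₁₂²⟩` of the overlap `R₁₂ = n⁻¹ ∑_i x_i y_i` of two independent samples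
(replicas) of the Gibbs measure. -/
noncomputable def overlapSq (β : ℝ) (g : Fin n → Fin n → ℝ) : ℝ :=
  ∑ x, ∑ y, gibbs β g x * gibbs β g y * ((∑ i, sp (x i) * sp (y i)) / n) ^ 2

/-! ### elementary facts -/

theorem sp_sq (b : Bool) : sp b * sp b = 1 := by cases b <;> simp [sp]

theorem sp_not (b : Bool) : sp (!b) = - sp b := by cases b <;> simp [sp]

theorem symG_symm (g : Fin n → Fin n → ℝ) (i j : Fin n) : symG g i j = symG g j i := by
  unfold symG
  rcases lt_trichotomy i j with h | h | h
  · simp [h, not_lt.2 h.le]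
  · subst h; simp
  · simp [h, not_lt.2 h.le]

theorem symG_self (g : Fin n → Fin n → ℝ) (i : Fin n) : symG g i i = 0 := by
  simp [symG]

theorem sum_lt_eq_half (g : Fin n → Fin n → ℝ) (a : Fin n → ℝ) :
    ∑ i, ∑ j ∈ univ.filter (fun j => i < j), g i j * a i * a j
      = (1 / 2) * ∑ i, ∑ j, symG g i j * a i * a j := by
  have h1 : ∀ i j, symG g i j * a i * a j
      = (if i < j then g i j * a i * a j else 0) + (if j < i then g j i * a j * a i else 0) := by
    intro i j
    unfold symG
    rcases lt_trichotomy i j with h | h | h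
    · simp [h, not_lt.2 h.le]
    · subst h; simp
    · simp [h, not_lt.2 h.le]; ring
  have h2 : ∑ i, ∑ j, symG g i j * a i * a j
      = ∑ i, ∑ j, (if i < j then g i j * a i * a j else 0)
        + ∑ i, ∑ j, (if j < i then g j i * a j * a i else 0) := by
    rw [← sum_add_distrib]
    refine sum_congr rfl fun i _ => ?_
    rw [← sum_add_distrib]
    exact sum_congr rfl fun j _ => h1 i j
  have h3 : ∑ i, ∑ j, (if j < i then g j i * a j * a i else 0)
      = ∑ i, ∑ j, (if i < j then g i j * a i * a j else 0) := sum_comm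
  rw [h2, h3]
  have h4 : ∀ i, ∑ j ∈ univ.filter (fun j => i < j), g i j * a i * a j
      = ∑ j, (if i < j then g i j * a i * a j else 0) := fun i => sum_filter _ _
  rw [sum_congr rfl fun i _ => h4 i]
  ring

theorem quad_update (S : Fin n → Fin n → ℝ) (hS : ∀ k l, S k l = S l k) (h0 : ∀ k, S k k = 0)
    (a : Fin n → ℝ) (i : Fin n) (d : ℝ) :
    ∑ k, ∑ l, S k l * (a k + if k = i then d else 0) * (a l + if l = i then d else 0)
      = ∑ k, ∑ l, S k l * a k * a l + 2 * d * ∑ l, S i l * a l := by
  have h1 : ∀ k l, S k l * (a k + if k = i then d else 0) * (a l + if l = i then d else 0)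
      = S k l * a k * a l + (if k = i then d * (S k l * a l) else 0)
        + (if l = i then d * (S k l * a k) else 0)
        + (if k = i then (if l = i then S k l * d * d else 0) else 0) := by
    intro k l
    by_cases hk : k = i <;> by_cases hl : l = i <;> simp [hk, hl] <;> ring
  rw [sum_congr rfl fun k _ => sum_congr rfl fun l _ => h1 k l]
  simp only [sum_add_distrib]
  have e2 : ∑ k, ∑ l, (if k = i then d * (S k l * a l) else 0) = d * ∑ l, S i l * a l := by
    have : ∀ k, ∑ l, (if k = i then d * (S k l * a l) else 0)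
        = if k = i then d * ∑ l, S k l * a l else 0 := by
      intro k
      by_cases hk : k = i
      · simp [hk, mul_sum]
      · simp [hk]
    rw [sum_congr rfl fun k _ => this k]
    simp
  have e3 : ∑ k, ∑ l, (if l = i then d * (S k l * a k) else 0) = d * ∑ l, S i l * a l := by
    have : ∀ k, ∑ l, (if l = i then d * (S k l * a k) else 0) = d * (S i k * a k) := by
      intro k
      simp [hS k i]
    rw [sum_congr rfl fun k _ => this k, mul_sum]
  have e4 : ∑ k, ∑ l, (if k = i then (if l = i then S k l * d * d else 0) else 0) = 0 := by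
    have : ∀ k, ∑ l, (if k = i then (if l = i then S k l * d * d else 0) else 0) = 0 := by
      intro k
      by_cases hk : k = i
      · simp [hk, h0]
      · simp [hk]
    rw [sum_congr rfl fun k _ => this k]
    simp
  rw [e2, e3, e4]
  ring

theorem field_eq (β : ℝ) (g : Fin n → Fin n → ℝ) (x : Config n) (i : Fin n) :
    field β g x i = β / Real.sqrt n * ∑ j, symG g i j * sp (x j) := by
  unfold field
  congr 1
  rw [sum_filter]
  refine sum_congr rfl fun j _ => ?_
  by_cases h : j = i
  · subst h; simp [symG_self]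
  · simp [h]

theorem field_update (β : ℝ) (g : Fin n → Fin n → ℝ) (x : Config n) (i : Fin n) (b : Bool) :
    field β g (Function.update x i b) i = field β g x i := by
  unfold field
  congr 1
  refine sum_congr rfl fun j hj => ?_
  rw [Function.update_of_ne (mem_filter.1 hj).2]

theorem ham_update (β : ℝ) (g : Fin n → Fin n → ℝ) (x : Config n) (i : Fin n) (b : Bool) :
    ham β g (Function.update x i b) = ham β g x + (sp b - sp (x i)) * field β g x i := by
  unfold ham
  rw [field_eq, sum_lt_eq_half, sum_lt_eq_half]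
  have h1 : ∀ k, sp (Function.update x i b k)
      = sp (x k) + if k = i then (sp b - sp (x i)) else 0 := by
    intro k
    by_cases hk : k = i
    · subst hk; simp
    · simp [hk]
  rw [sum_congr rfl fun k _ => sum_congr rfl fun l _ => by rw [h1 k, h1 l]]
  rw [quad_update (symG g) (symG_symm g) (symG_self g)]
  ring

end Vale.Agent.Lib.P150
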