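import Vale.Agent.Lib.P150.Basic

/-!
# P150: the spectral gap of Glauber dynamics is at most `1 / (n ⟨R₁₂²⟩)`
-/

namespace Vale.Agent.Lib.P150

open Finset

variable {n : ℕ}

theorem partition_pos (β : ℝ) (g : Fin n → Fin n → ℝ) : 0 < partition β g :=
  sum_pos (fun _ _ => Real.exp_pos _) ⟨fun _ => true, mem_univ _⟩

theorem gibbs_pos (β : ℝ) (g : Fin n → Fin n → ℝ) (x : Config n) : 0 < gibbs β g x :=
  div_pos (Real.exp_pos _) (partition_pos β g)

theorem sum_gibbs (β : ℝ) (g : Fin n → Fin n → ℝ) : ∑ x, gibbs β g x = 1 := by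
  unfold gibbs
  rw [← sum_div]
  exact div_self (partition_pos β g).ne'

/-- flipping the spin at `i` -/
def flipAt (i : Fin n) (x : Config n) : Config n := Function.update x i (!x i)

theorem flipAt_invol (i : Fin n) : Function.Involutive (flipAt (n := n) i) := by
  intro x
  unfold flipAt
  simp

theorem sum_double (i : Fin n) (F : Config n → ℝ) :
    ∑ x, ∑ b : Bool, F (Function.update x i b) = 2 * ∑ x, F x := by
  have h1 : ∀ x : Config n, ∑ b : Bool, F (Function.update x i b) = F x + F (flipAt i x) := by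
    intro x
    rw [Fintype.sum_bool]
    unfold flipAt
    cases hx : x i
    · have : Function.update x i false = x := by rw [← hx]; exact Function.update_eq_self i x
      rw [this]; simp [add_comm]
    · have : Function.update x i true = x := by rw [← hx]; exact Function.update_eq_self i x
      rw [this]; simp
  rw [sum_congr rfl fun x _ => h1 x, sum_add_distrib]
  have h2 : ∑ x, F (flipAt i x) = ∑ x, F x :=
    Equiv.sum_comp (flipAt_invol i).toPerm F
  rw [h2]; ring

/-- heat-bath probabilities -/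
noncomputable def hb (β : ℝ) (g : Fin n → Fin n → ℝ) (x : Config n) (i : Fin n) (b : Bool) : ℝ :=
  Real.exp (sp b * field β g x i) / (2 * Real.cosh (field β g x i))

theorem Q_eq (β : ℝ) (g : Fin n → Fin n → ℝ) (i : Fin n) (f : Config n → ℝ) (x : Config n) :
    Q β g i f x = ∑ b : Bool, hb β g x i b * f (Function.update x i b) := rfl

theorem sum_hb (β : ℝ) (g : Fin n → Fin n → ℝ) (x : Config n) (i : Fin n) :
    ∑ b : Bool, hb β g x i b = 1 := by
  rw [Fintype.sum_bool]
  unfold hb sp
  simp only [if_true, Bool.false_eq_true, if_false]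
  rw [← add_div, Real.cosh_eq]
  have : 0 < Real.exp (field β g x i) + Real.exp (-field β g x i) := by positivity
  field_simp

theorem gibbs_update (β : ℝ) (g : Fin n → Fin n → ℝ) (x : Config n) (i : Fin n) (b : Bool) :
    gibbs β g (Function.update x i b)
      = hb β g x i b * ∑ b' : Bool, gibbs β g (Function.update x i b') := by
  have h1 : ∀ b', gibbs β g (Function.update x i b')
      = Real.exp (ham β g x - sp (x i) * field β g x i) / partition β g
        * Real.exp (sp b' * field β g x i) := by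
    intro b'
    unfold gibbs
    rw [ham_update, div_mul_eq_mul_div, ← Real.exp_add]
    congr 2
    ring
  rw [sum_congr rfl fun b' _ => h1 b', h1 b, ← mul_sum, Fintype.sum_bool]
  unfold hb
  have h2 : Real.exp (sp true * field β g x i) + Real.exp (sp false * field β g x i)
      = 2 * Real.cosh (field β g x i) := by
    rw [Real.cosh_eq]; simp [sp]; ring
  rw [h2]
  have : 0 < Real.cosh (field β g x i) := Real.cosh_pos _
  field_simp

theorem hb_update (β : ℝ) (g : Fin n → Fin n → ℝ) (x : Config n) (i : Fin n) (b b' : Bool) :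
    hb β g (Function.update x i b) i b' = hb β g x i b' := by
  unfold hb
  rw [field_update]

theorem Q_update (β : ℝ) (g : Fin n → Fin n → ℝ) (i : Fin n) (f : Config n → ℝ) (x : Config n)
    (b : Bool) : Q β g i f (Function.update x i b) = Q β g i f x := by
  rw [Q_eq, Q_eq]
  refine sum_congr rfl fun b' _ => ?_
  rw [hb_update, Function.update_idem]

/-- The DLR identity: `f - Q_i f` is orthogonal to the functions that do not depend on `x_i`. -/
theorem dlr (β : ℝ) (g : Fin n → Fin n → ℝ) (i : Fin n) (f G : Config n → ℝ)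
    (hG : ∀ x b, G (Function.update x i b) = G x) :
    Ex β g (fun x => G x * (f x - Q β g i f x)) = 0 := by
  unfold Ex
  have h := sum_double i (fun x => gibbs β g x * (G x * (f x - Q β g i f x)))
  have h0 : ∀ x : Config n, ∑ b : Bool, gibbs β g (Function.update x i b) *
      (G (Function.update x i b) *
        (f (Function.update x i b) - Q β g i f (Function.update x i b))) = 0 := by
    intro x
    have h1 : ∀ b : Bool, gibbs β g (Function.update x i b) *
      (G (Function.update x i b) *
        (f (Function.update x i b) - Q β g i f (Function.update x i b)))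
        = G x * (∑ b' : Bool, gibbs β g (Function.update x i b')) *
          (hb β g x i b * f (Function.update x i b) - hb β g x i b * Q β g i f x) := by
      intro b
      rw [hG, Q_update, gibbs_update]
      ring
    rw [sum_congr rfl fun b _ => h1 b, ← mul_sum, sum_sub_distrib, ← sum_mul, sum_hb, ← Q_eq]
    ring
  rw [sum_congr rfl fun x _ => h0 x] at h
  simp only [sum_const_zero] at h
  linarith

theorem Ex_add (β : ℝ) (g : Fin n → Fin n → ℝ) (f1 f2 : Config n → ℝ) :
    Ex β g (fun x => f1 x + f2 x) = Ex β g f1 + Ex β g f2 := by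
  unfold Ex
  rw [← sum_add_distrib]
  exact sum_congr rfl fun x _ => by ring

theorem Ex_sum {ι : Type} (s : Finset ι) (β : ℝ) (g : Fin n → Fin n → ℝ)
    (F : ι → Config n → ℝ) : Ex β g (fun x => ∑ k ∈ s, F k x) = ∑ k ∈ s, Ex β g (F k) := by
  unfold Ex
  rw [sum_comm]
  exact sum_congr rfl fun x _ => mul_sum _ _ _

theorem Ex_nonneg (β : ℝ) (g : Fin n → Fin n → ℝ) (f : Config n → ℝ) (hf : ∀ x, 0 ≤ f x) :
    0 ≤ Ex β g f :=
  sum_nonneg fun x _ => mul_nonneg (gibbs_pos β g x).le (hf x)

theorem Ex_const (β : ℝ) (g : Fin n → Fin n → ℝ) (c : ℝ) : Ex β g (fun _ => c) = c := by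
  unfold Ex
  rw [← sum_mul, sum_gibbs, one_mul]

theorem Ex_self_sub (β : ℝ) (g : Fin n → Fin n → ℝ) (i : Fin n) (f : Config n → ℝ) :
    Ex β g (fun x => f x * (f x - Q β g i f x)) = Ex β g (fun x => (f x - Q β g i f x) ^ 2) := by
  have h := dlr β g i f (Q β g i f) (fun x b => Q_update β g i f x b)
  have h2 : (fun x => f x * (f x - Q β g i f x))
      = fun x => (f x - Q β g i f x) ^ 2 + Q β g i f x * (f x - Q β g i f x) := by
    funext x; ring
  rw [h2, Ex_add, h, add_zero]

theorem dirichlet_eq (β : ℝ) (g : Fin n → Fin n → ℝ) (f : Config n → ℝ) :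
    dirichlet β g f = ∑ i, Ex β g (fun x => (f x - Q β g i f x) ^ 2) := by
  unfold dirichlet gen
  have h : (fun x => f x * -∑ i, (Q β g i f x - f x))
      = fun x => ∑ i ∈ univ, f x * (f x - Q β g i f x) := by
    funext x
    rw [← sum_neg_distrib, mul_sum]
    exact sum_congr rfl fun i _ => by ring
  rw [h, Ex_sum]
  exact sum_congr rfl fun i _ => Ex_self_sub β g i f

theorem dirichlet_nonneg (β : ℝ) (g : Fin n → Fin n → ℝ) (f : Config n → ℝ) :
    0 ≤ dirichlet β g f := by
  rw [dirichlet_eq]
  exact sum_nonneg fun i _ => Ex_nonneg β g _ fun x => sq_nonneg _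

theorem Vr_nonneg (β : ℝ) (g : Fin n → Fin n → ℝ) (f : Config n → ℝ) : 0 ≤ Vr β g f :=
  Ex_nonneg β g _ fun _ => sq_nonneg _

/-- The Poincare inequality with the constant `gap`. -/
theorem gap_mul_Vr_le (β : ℝ) (g : Fin n → Fin n → ℝ) (f : Config n → ℝ) :
    gap β g * Vr β g f ≤ dirichlet β g f := by
  rcases (Vr_nonneg β g f).eq_or_lt with h | h
  · rw [← h, mul_zero]; exact dirichlet_nonneg β g f
  · have hb : BddBelow {r | ∃ f : Config n → ℝ, 0 < Vr β g f ∧
        r = dirichlet β g f / Vr β g f} := by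
      refine ⟨0, ?_⟩
      rintro r ⟨f', hf', rfl⟩
      exact div_nonneg (dirichlet_nonneg β g f') hf'.le
    have h1 : gap β g ≤ dirichlet β g f / Vr β g f := csInf_le hb ⟨f, h, rfl⟩
    rwa [le_div_iff₀ h] at h1

/-- The linear statistic `∑_k v_k x_k`. -/
noncomputable def lin (v : Fin n → ℝ) (x : Config n) : ℝ := ∑ k, v k * sp (x k)

/-- the spin at `i` as a function -/
noncomputable def spinAt (i : Fin n) (x : Config n) : ℝ := sp (x i)

theorem lin_update (v : Fin n → ℝ) (x : Config n) (i : Fin n) (b : Bool) :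
    lin v (Function.update x i b) = lin v x + v i * (sp b - sp (x i)) := by
  unfold lin
  have h1 : ∀ k, v k * sp (Function.update x i b k)
      = v k * sp (x k) + if k = i then v k * (sp b - sp (x k)) else 0 := by
    intro k
    by_cases hk : k = i
    · subst hk; simp; ring
    · simp [hk]
  rw [sum_congr rfl fun k _ => h1 k, sum_add_distrib]
  simp

theorem Q_spinAt (β : ℝ) (g : Fin n → Fin n → ℝ) (x : Config n) (i : Fin n) :
    Q β g i (spinAt i) x = Real.tanh (field β g x i) := by
  rw [Q_eq, Fintype.sum_bool]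
  unfold hb spinAt sp
  simp only [Function.update_self, if_true, Bool.false_eq_true, if_false]
  rw [Real.tanh_eq_sinh_div_cosh, Real.sinh_eq]
  have : 0 < Real.cosh (field β g x i) := Real.cosh_pos _
  field_simp
  ring_nf

theorem lin_sub_Q (β : ℝ) (g : Fin n → Fin n → ℝ) (v : Fin n → ℝ) (x : Config n) (i : Fin n) :
    lin v x - Q β g i (lin v) x = v i * (spinAt i x - Q β g i (spinAt i) x) := by
  rw [Q_eq, Q_eq]
  have h1 : ∀ b : Bool, hb β g x i b * lin v (Function.update x i b)
      = hb β g x i b * (lin v x - v i * sp (x i))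
        + v i * (hb β g x i b * spinAt i (Function.update x i b)) := by
    intro b
    rw [lin_update]
    unfold spinAt
    simp only [Function.update_self]
    ring
  rw [sum_congr rfl fun b _ => h1 b, sum_add_distrib, ← sum_mul, sum_hb, ← mul_sum]
  unfold spinAt
  ring

theorem Ex_neg (β : ℝ) (g : Fin n → Fin n → ℝ) (f : Config n → ℝ) :
    Ex β g (fun x => - f x) = - Ex β g f := by
  unfold Ex
  rw [← sum_neg_distrib]
  exact sum_congr rfl fun x _ => by ring

theorem Ex_const_mul (β : ℝ) (g : Fin n → Fin n → ℝ) (c : ℝ) (f : Config n → ℝ) :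
    Ex β g (fun x => c * f x) = c * Ex β g f := by
  unfold Ex
  rw [mul_sum]
  exact sum_congr rfl fun x _ => by ring

theorem Ex_spin_sq (β : ℝ) (g : Fin n → Fin n → ℝ) (i : Fin n) :
    Ex β g (fun x => (spinAt i x - Q β g i (spinAt i) x) ^ 2)
      = Ex β g (fun x => 1 - Real.tanh (field β g x i) ^ 2) := by
  rw [← Ex_self_sub]
  have h := dlr β g i (spinAt i) (Q β g i (spinAt i)) (fun x b => Q_update β g i _ x b)
  have h2 : (fun x => spinAt i x * (spinAt i x - Q β g i (spinAt i) x))
      = fun x => (1 - Real.tanh (field β g x i) ^ 2)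
        + - (Q β g i (spinAt i) x * (spinAt i x - Q β g i (spinAt i) x)) := by
    funext x
    have h3 : spinAt i x * spinAt i x = 1 := sp_sq _
    rw [← Q_spinAt]
    linear_combination h3
  rw [h2, Ex_add, Ex_neg, h, neg_zero, add_zero]

theorem dirichlet_lin (β : ℝ) (g : Fin n → Fin n → ℝ) (v : Fin n → ℝ) :
    dirichlet β g (lin v)
      = ∑ i, v i ^ 2 * Ex β g (fun x => 1 - Real.tanh (field β g x i) ^ 2) := by
  rw [dirichlet_eq]
  refine sum_congr rfl fun i _ => ?_
  have h1 : (fun x => (lin v x - Q β g i (lin v) x) ^ 2)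
      = fun x => v i ^ 2 * (spinAt i x - Q β g i (spinAt i) x) ^ 2 := by
    funext x
    rw [lin_sub_Q, mul_pow]
  rw [h1, Ex_const_mul, Ex_spin_sq]

/-- global spin flip -/
def flipAll (x : Config n) : Config n := fun i => !x i

theorem flipAll_invol : Function.Involutive (flipAll (n := n)) := by
  intro x
  funext i
  simp [flipAll]

theorem ham_flipAll (β : ℝ) (g : Fin n → Fin n → ℝ) (x : Config n) :
    ham β g (flipAll x) = ham β g x := by
  unfold ham flipAll
  congr 1
  refine sum_congr rfl fun i _ => sum_congr rfl fun j _ => ?_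
  rw [sp_not, sp_not]; ring

theorem gibbs_flipAll (β : ℝ) (g : Fin n → Fin n → ℝ) (x : Config n) :
    gibbs β g (flipAll x) = gibbs β g x := by
  unfold gibbs
  rw [ham_flipAll]

theorem lin_flipAll (v : Fin n → ℝ) (x : Config n) : lin v (flipAll x) = - lin v x := by
  unfold lin flipAll
  rw [← sum_neg_distrib]
  refine sum_congr rfl fun k _ => ?_
  rw [sp_not]; ring

theorem Ex_lin (β : ℝ) (g : Fin n → Fin n → ℝ) (v : Fin n → ℝ) : Ex β g (lin v) = 0 := by
  have h : Ex β g (lin v) = - Ex β g (lin v) := by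
    unfold Ex
    rw [← sum_neg_distrib]
    rw [← Equiv.sum_comp (flipAll_invol (n := n)).toPerm]
    refine sum_congr rfl fun x _ => ?_
    simp only [Function.Involutive.coe_toPerm]
    rw [gibbs_flipAll, lin_flipAll]; ring
  linarith

theorem Vr_lin (β : ℝ) (g : Fin n → Fin n → ℝ) (v : Fin n → ℝ) :
    Vr β g (lin v) = Ex β g (fun x => (lin v x) ^ 2) := by
  unfold Vr
  rw [Ex_lin]
  simp

theorem Ex_lin_sq (β : ℝ) (g : Fin n → Fin n → ℝ) (v : Fin n → ℝ) :
    Ex β g (fun x => (lin v x) ^ 2)
      = ∑ i, ∑ j, v i * v j * Ex β g (fun x => sp (x i) * sp (x j)) := by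
  have h1 : (fun x : Config n => (lin v x) ^ 2)
      = fun x => ∑ i ∈ univ, ∑ j ∈ univ, v i * v j * (sp (x i) * sp (x j)) := by
    funext x
    unfold lin
    rw [sq, sum_mul_sum]
    exact sum_congr rfl fun i _ => sum_congr rfl fun j _ => by ring
  rw [h1, Ex_sum]
  refine sum_congr rfl fun i _ => ?_
  rw [Ex_sum]
  exact sum_congr rfl fun j _ => Ex_const_mul β g _ _

/-- The test-vector inequality. -/
theorem gap_lin (β : ℝ) (g : Fin n → Fin n → ℝ) (v : Fin n → ℝ) :
    gap β g * ∑ i, ∑ j, v i * v j * Ex β g (fun x => sp (x i) * sp (x j))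
      ≤ ∑ i, v i ^ 2 * Ex β g (fun x => 1 - Real.tanh (field β g x i) ^ 2) := by
  rw [← Ex_lin_sq, ← Vr_lin, ← dirichlet_lin]
  exact gap_mul_Vr_le β g (lin v)

/-- The main inequality. -/
theorem gap_overlap (hn : 0 < n) (β : ℝ) (g : Fin n → Fin n → ℝ) :
    gap β g * (n * overlapSq β g)
      ≤ 1 - (∑ i, Ex β g (fun x => Real.tanh (field β g x i) ^ 2)) / n := by
  have hnR : (0 : ℝ) < n := by exact_mod_cast hn
  obtain ⟨D, hD⟩ : ∃ D : ℝ, D = ∑ i, Ex β g (fun x => 1 - Real.tanh (field β g x i) ^ 2) :=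
    ⟨_, rfl⟩
  have hD2 : D = n - ∑ i, Ex β g (fun x => Real.tanh (field β g x i) ^ 2) := by
    rw [hD]
    have : ∀ i, Ex β g (fun x => 1 - Real.tanh (field β g x i) ^ 2)
        = 1 - Ex β g (fun x => Real.tanh (field β g x i) ^ 2) := by
      intro i
      have h : (fun x : Config n => 1 - Real.tanh (field β g x i) ^ 2)
          = fun x => 1 + - Real.tanh (field β g x i) ^ 2 := by funext x; ring
      rw [h, Ex_add, Ex_const, Ex_neg]; ring
    rw [sum_congr rfl fun i _ => this i, sum_sub_distrib]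
    simp
  have h1 : ∀ y : Config n,
      gibbs β g y * (gap β g * Ex β g (fun x => (lin (fun k => sp (y k)) x) ^ 2))
      ≤ gibbs β g y * D := by
    intro y
    refine mul_le_mul_of_nonneg_left ?_ (gibbs_pos β g y).le
    rw [← Vr_lin]
    refine (gap_mul_Vr_le β g _).trans (le_of_eq ?_)
    rw [dirichlet_lin, hD]
    refine sum_congr rfl fun i _ => ?_
    have : sp (y i) ^ 2 = 1 := by rw [sq]; exact sp_sq _
    rw [this, one_mul]
  have h2 := sum_le_sum fun y (_ : y ∈ (univ : Finset (Config n))) => h1 y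
  rw [← sum_mul, sum_gibbs, one_mul] at h2
  have h3 : ∑ y, gibbs β g y * (gap β g * Ex β g (fun x => (lin (fun k => sp (y k)) x) ^ 2))
      = gap β g * ((n : ℝ) ^ 2 * overlapSq β g) := by
    unfold overlapSq Ex
    rw [mul_sum, mul_sum]
    refine sum_congr rfl fun y _ => ?_
    rw [mul_sum, mul_sum, mul_sum, mul_sum]
    refine sum_congr rfl fun x _ => ?_
    unfold lin
    field_simp
  rw [h3, hD2] at h2
  have h4 : gap β g * ((n : ℝ) ^ 2 * overlapSq β g) = (gap β g * (n * overlapSq β g)) * n := by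
    ring
  rw [h4] at h2
  rw [le_sub_iff_add_le, ← le_sub_iff_add_le', div_le_iff₀ hnR]
  linarith

theorem gap_overlap_le_one (hn : 0 < n) (β : ℝ) (g : Fin n → Fin n → ℝ) :
    gap β g * (n * overlapSq β g) ≤ 1 := by
  refine (gap_overlap hn β g).trans ?_
  have : 0 ≤ (∑ i, Ex β g (fun x => Real.tanh (field β g x i) ^ 2)) / n :=
    div_nonneg (sum_nonneg fun i _ => Ex_nonneg β g _ fun x => sq_nonneg _) (Nat.cast_nonneg n)
  linarith

theorem gap_nonneg (β : ℝ) (g : Fin n → Fin n → ℝ) : 0 ≤ gap β g := by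
  unfold gap
  apply Real.sInf_nonneg
  rintro r ⟨f', hf', rfl⟩
  exact div_nonneg (dirichlet_nonneg β g f') hf'.le

end Vale.Agent.Lib.P150
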